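import Vale.Agent.P046.ALL

/-!
# P046: the number of edges left by random triangle removal has expectation of order `n^(3/2)`

Graphs on the vertex set `Fin n` are edge sets (finite sets of two-element sets).  `pairs n` is
the complete graph, `step G` the law of one step of the process (a uniformly random triangle is
deleted; a triangle-free graph stays), `after G k` the law after `k` steps.  The complete graph
has fewer than `n ^ 2` edges and each step deletes three, so after `n ^ 2` steps the process has
reached its final graph.
-/

namespace Vale.Agent.Results.P046.OrderOfMagnitude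

open Finset Vale.Agent.P046 Vale.Agent.P046.Model

/-- expected number of edges of the final graph of the random triangle removal process
started from the complete graph on `n` vertices -/
noncomputable def meanLeft (n : ℕ) : ℝ :=
  ex (after (pairs n) (n ^ 2)) (fun H => (H.card : ℝ))

theorem supp_after {n : ℕ} (k : ℕ) :
    ∀ G : Finset (Finset (Fin n)), G.card ≤ k → ∀ H ∈ (after G k).support, tri H = ∅ := by
  induction k with
  | zero =>
    intro G hG H hH
    have hG0 : G = ∅ := by
      rw [← Finset.card_eq_zero]; omega
    have hno : ¬ (tri G).Nonempty := by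
      rintro ⟨T, hT⟩
      have := del_card_lt G T hT
      omega
    have hH' : H ∈ (PMF.pure G).support := hH
    rw [PMF.support_pure, Set.mem_singleton_iff] at hH'
    rw [hH']
    exact Finset.not_nonempty_iff_eq_empty.mp hno
  | succ k ih =>
    intro G hG H hH
    have hH' : H ∈ ((step G).bind (fun H => after H k)).support := hH
    by_cases h : (tri G).Nonempty
    · rw [PMF.mem_support_bind_iff] at hH'
      obtain ⟨G', hG', hH2⟩ := hH'
      have hs : step G = (PMF.uniformOfFinset (tri G) h).map (fun T => del G T) := by
        unfold step; rw [dif_pos h]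
      rw [hs, PMF.support_map] at hG'
      obtain ⟨T, hT, rfl⟩ := hG'
      rw [PMF.mem_support_uniformOfFinset_iff] at hT
      have hlt := del_card_lt G T hT
      have hle : (del G T).card ≤ k := by omega
      exact ih _ hle H hH2
    · have h1 : step G = PMF.pure G := by unfold step; rw [dif_neg h]
      have h2 : ∀ j, after G j = PMF.pure G := by
        intro j
        induction j with
        | zero => rfl
        | succ j ihj =>
          change (step G).bind (fun H => after H j) = _
          rw [h1, PMF.pure_bind, ihj]
      rw [h1, PMF.pure_bind, h2 k, PMF.support_pure, Set.mem_singleton_iff] at hH'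
      rw [hH']
      exact Finset.not_nonempty_iff_eq_empty.mp h

theorem meanLeft_eq (n : ℕ) : meanLeft n = leaveExp (pairs n) := by
  unfold meanLeft
  rw [ex_after _ _ _ (card_le_sq _ (Finset.Subset.refl _))]
  rfl

/-- The random triangle removal process from the complete graph on `n` vertices is finished
after `n ^ 2` steps, and the expected number of remaining edges is of order `n ^ (3/2)`. -/
theorem result :
    (∀ n : ℕ, ∀ H ∈ (after (pairs n) (n ^ 2)).support, tri H = ∅) ∧
    ∃ c C : ℝ, 0 < c ∧ ∃ n0 : ℕ, ∀ n : ℕ, n0 ≤ n →
      c * (n : ℝ) ^ ((3 : ℝ) / 2) ≤ meanLeft n ∧ meanLeft n ≤ C * (n : ℝ) ^ ((3 : ℝ) / 2) := by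
  refine ⟨fun n => supp_after _ _ (card_le_sq _ (Finset.Subset.refl _)), ?_⟩
  obtain ⟨C, hC⟩ := ALL.up
  obtain ⟨c, hc, n0, hlow⟩ := ALL.low
  refine ⟨c, C, hc, n0, fun n hn => ?_⟩
  rw [meanLeft_eq]
  exact ⟨hlow n hn, hC n⟩

end Vale.Agent.Results.P046.OrderOfMagnitude
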