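import Vale.Agent.Results.P046.SharpConstant

/-!
# P046 in the language of Mathlib's simple graphs: random triangle removal leaves
`(1 / (2 sqrt 2) + o(1)) n^(3/2)` edges
-/

namespace Vale.Agent.Results.P046.SimpleGraphForm

open Filter Topology

open Classical in
/-- One step of the random triangle removal process at the graph `G`: a triangle (a clique with
three vertices) `T` of `G` is chosen uniformly at random and the edges inside `T` are deleted; a
triangle-free graph stays. -/
noncomputable def step {n : ℕ} (G : SimpleGraph (Fin n)) : PMF (SimpleGraph (Fin n)) :=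
  if h : (G.cliqueFinset 3).Nonempty then
    (PMF.uniformOfFinset (G.cliqueFinset 3) h).map (fun T => G.deleteEdges T.sym2)
  else PMF.pure G

/-- The law of the graph after `k` steps, started from the complete graph on `n` vertices. -/
noncomputable def law (n : ℕ) : ℕ → PMF (SimpleGraph (Fin n))
  | 0 => PMF.pure ⊤
  | k + 1 => (law n k).bind step

/-- The number of edges of the graph `H`. -/
noncomputable def edges {n : ℕ} (H : SimpleGraph (Fin n)) : ℕ := H.edgeSet.ncard

open Vale.Agent.P046 Vale.Agent.P046.Model

variable {n : ℕ}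

open Classical in
/-- the edge set as a set of two-element sets -/
noncomputable def phi (G : SimpleGraph (Fin n)) : Finset (Finset (Fin n)) :=
  (pairs n).filter fun e => ∀ a ∈ e, ∀ b ∈ e, a ≠ b → G.Adj a b

theorem mem_phi (G : SimpleGraph (Fin n)) (e : Finset (Fin n)) :
    e ∈ phi G ↔ e.card = 2 ∧ ∀ a ∈ e, ∀ b ∈ e, a ≠ b → G.Adj a b := by
  classical
  unfold phi pairs
  rw [Finset.mem_filter, Finset.mem_powersetCard]
  simp

theorem phi_top : phi (⊤ : SimpleGraph (Fin n)) = pairs n := by
  classical
  ext e
  rw [mem_phi]
  unfold pairs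
  rw [Finset.mem_powersetCard]
  simp

theorem phi_del (G : SimpleGraph (Fin n)) (T : Finset (Fin n)) :
    phi (G.deleteEdges T.sym2) = del (phi G) T := by
  classical
  ext e
  unfold del eds
  rw [Finset.mem_sdiff, mem_phi, mem_phi, Finset.mem_powersetCard]
  constructor
  · rintro ⟨h1, h2⟩
    refine ⟨⟨h1, fun a ha b hb hab => ?_⟩, ?_⟩
    · have := h2 a ha b hb hab
      rw [SimpleGraph.deleteEdges_adj] at this
      exact this.1
    · rintro ⟨h3, -⟩
      obtain ⟨a, b, hab, rfl⟩ := Finset.card_eq_two.mp h1
      have := h2 a (by simp) b (by simp) hab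
      rw [SimpleGraph.deleteEdges_adj] at this
      apply this.2
      rw [Finset.mem_coe, Finset.mk_mem_sym2_iff]
      exact ⟨h3 (by simp), h3 (by simp)⟩
  · rintro ⟨⟨h1, h2⟩, h3⟩
    refine ⟨h1, fun a ha b hb hab => ?_⟩
    rw [SimpleGraph.deleteEdges_adj]
    refine ⟨h2 a ha b hb hab, ?_⟩
    rw [Finset.mem_coe, Finset.mk_mem_sym2_iff]
    rintro ⟨ha', hb'⟩
    apply h3
    refine ⟨?_, h1⟩
    obtain ⟨x, y, hxy, rfl⟩ := Finset.card_eq_two.mp h1
    intro z hz
    simp only [Finset.mem_insert, Finset.mem_singleton] at ha hb hz
    rcases hz with rfl | rfl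
    · rcases ha with rfl | rfl
      · exact ha'
      · rcases hb with rfl | rfl
        · exact hb'
        · exact absurd rfl hab
    · rcases ha with rfl | rfl
      · rcases hb with rfl | rfl
        · exact absurd rfl hab
        · exact hb'
      · exact ha'

theorem tri_phi (G : SimpleGraph (Fin n)) [DecidableRel G.Adj] :
    tri (phi G) = G.cliqueFinset 3 := by
  classical
  ext T
  rw [SimpleGraph.mem_cliqueFinset_iff, SimpleGraph.isNClique_iff]
  unfold tri
  rw [Finset.mem_filter, Finset.mem_powersetCard]
  constructor
  · rintro ⟨⟨-, h1⟩, h2⟩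
    refine ⟨?_, h1⟩
    intro a ha b hb hab
    have h3 : ({a, b} : Finset (Fin n)) ∈ phi G := by
      apply h2
      unfold eds
      rw [Finset.mem_powersetCard]
      refine ⟨?_, Finset.card_pair hab⟩
      intro x hx
      simp only [Finset.mem_insert, Finset.mem_singleton] at hx
      rcases hx with rfl | rfl
      · exact ha
      · exact hb
    exact ((mem_phi _ _).mp h3).2 a (by simp) b (by simp) hab
  · rintro ⟨h1, h2⟩
    refine ⟨⟨Finset.subset_univ _, h2⟩, ?_⟩
    intro e he
    unfold eds at he
    rw [Finset.mem_powersetCard] at he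
    rw [mem_phi]
    exact ⟨he.2, fun a ha b hb hab => h1 (he.1 ha) (he.1 hb) hab⟩

theorem card_phi (G : SimpleGraph (Fin n)) : (phi G).card = edges G := by
  classical
  unfold edges
  rw [← Set.ncard_coe_finset]
  symm
  apply Set.ncard_congr (fun (e : Sym2 (Fin n)) (_ : e ∈ G.edgeSet) => e.toFinset)
  · intro e he
    rw [Finset.mem_coe, mem_phi]
    induction e using Sym2.ind with
    | _ a b =>
      rw [SimpleGraph.mem_edgeSet] at he
      have hab := he.ne
      refine ⟨by rw [Sym2.card_toFinset_of_not_isDiag _ (by simpa using hab)], ?_⟩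
      intro x hx y hy hxy
      simp only [Sym2.mem_toFinset, Sym2.mem_iff] at hx hy
      rcases hx with rfl | rfl
      · rcases hy with rfl | rfl
        · exact absurd rfl hxy
        · exact he
      · rcases hy with rfl | rfl
        · exact he.symm
        · exact absurd rfl hxy
  · intro e f _ _ hef
    apply Sym2.ext
    intro x
    rw [← Sym2.mem_toFinset, ← Sym2.mem_toFinset, hef]
  · intro e he
    rw [Finset.mem_coe, mem_phi] at he
    obtain ⟨a, b, hab, rfl⟩ := Finset.card_eq_two.mp he.1
    refine ⟨s(a, b), ?_, ?_⟩
    · rw [SimpleGraph.mem_edgeSet]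
      exact he.2 a (by simp) b (by simp) hab
    · ext x
      simp

theorem uniform_congr {α : Type} {s t : Finset α} (hst : s = t) (hs : s.Nonempty)
    (ht : t.Nonempty) : PMF.uniformOfFinset s hs = PMF.uniformOfFinset t ht := by
  subst hst
  rfl

theorem step_map (G : SimpleGraph (Fin n)) : (step G).map phi = Model.step (phi G) := by
  classical
  unfold step Model.step
  by_cases h : (G.cliqueFinset 3).Nonempty
  · have h' : (tri (phi G)).Nonempty := by rw [tri_phi]; exact h
    rw [dif_pos h, dif_pos h', PMF.map_comp]
    have e1 : (phi ∘ fun T : Finset (Fin n) => G.deleteEdges T.sym2) =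
        fun T => del (phi G) T := by
      funext T
      exact phi_del G T
    rw [e1, uniform_congr (tri_phi G) h' h]
  · have h' : ¬ (tri (phi G)).Nonempty := by rw [tri_phi]; exact h
    rw [dif_neg h, dif_neg h', PMF.pure_map]

theorem after_succ (G : Finset (Finset (Fin n))) (k : ℕ) :
    after G (k + 1) = (after G k).bind Model.step := by
  induction k generalizing G with
  | zero =>
    change (Model.step G).bind (fun H => PMF.pure H) = (PMF.pure G).bind Model.step
    rw [PMF.bind_pure, PMF.pure_bind]
  | succ k ih =>
    change (Model.step G).bind (fun H => after H (k + 1)) =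
      ((Model.step G).bind (fun H => after H k)).bind Model.step
    rw [PMF.bind_bind]
    congr 1
    funext H
    exact ih H

theorem law_map (k : ℕ) : (law n k).map phi = after (pairs n) k := by
  induction k with
  | zero =>
    change (PMF.pure ⊤).map phi = PMF.pure (pairs n)
    rw [PMF.pure_map, phi_top]
  | succ k ih =>
    change ((law n k).bind step).map phi = _
    rw [after_succ, ← ih, PMF.map_bind, PMF.bind_map]
    congr 1
    funext G
    exact step_map G

theorem ex_map (p : PMF (SimpleGraph (Fin n))) (f : Finset (Finset (Fin n)) → ℝ) :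
    ex (p.map phi) f = ∑' H, (p H).toReal * f (phi H) := by
  classical
  rw [tsum_fintype]
  unfold ex
  have h1 : ∀ K, ((p.map phi) K).toReal = ∑ H, if K = phi H then (p H).toReal else 0 := by
    intro K
    rw [PMF.map_apply, tsum_fintype, ENNReal.toReal_sum]
    · apply Finset.sum_congr rfl
      intro H _
      split_ifs
      · rfl
      · simp
    · intro H _
      split_ifs
      · exact PMF.apply_ne_top _ _
      · simp
  simp only [h1, Finset.sum_mul]
  rw [Finset.sum_comm]
  apply Finset.sum_congr rfl
  intro H _
  rw [Finset.sum_eq_single (phi H)]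
  · simp
  · intro K _ hK
    rw [if_neg hK, zero_mul]
  · intro h
    exact absurd (Finset.mem_univ _) h

theorem triangle_free (k : ℕ) (hk : n ^ 2 ≤ k) (H : SimpleGraph (Fin n))
    (hH : H ∈ (law n k).support) : H.CliqueFree 3 := by
  classical
  have h1 : phi H ∈ (after (pairs n) k).support := by
    rw [← law_map, PMF.support_map]
    exact Set.mem_image_of_mem _ hH
  have h2 := SharpConstant.supp_after k (pairs n)
    ((card_le_sq _ (Finset.Subset.refl _)).trans hk) (phi H) h1
  rw [tri_phi] at h2
  rwa [SimpleGraph.cliqueFinset_eq_empty_iff] at h2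

theorem bind_step (n k : ℕ) (hk : n ^ 2 ≤ k) : (law n k).bind step = law n k := by
  classical
  ext K
  conv_rhs => rw [← PMF.bind_pure (law n k)]
  rw [PMF.bind_apply, PMF.bind_apply]
  apply tsum_congr
  intro H
  by_cases h0 : (law n k) H = 0
  · rw [h0, zero_mul, zero_mul]
  · have h1 : H ∈ (law n k).support := (PMF.mem_support_iff _ _).mpr h0
    have h2 := triangle_free k hk H h1
    have h3 : ¬ (H.cliqueFinset 3).Nonempty := by
      rw [SimpleGraph.cliqueFinset_eq_empty_iff.mpr h2]
      simp
    have h4 : step H = PMF.pure H := by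
      unfold step
      rw [dif_neg h3]
    rw [h4]

/-- Random triangle removal started from the complete graph on `n` vertices.  (1) After `n ^ 2`
steps (or more) the graph is triangle-free with probability one, so the process has stopped and the
law of the final graph is `law n (n ^ 2)`.  (2) The number of edges of the final graph divided by
`n ^ (3/2)` converges to `1 / (2 sqrt 2)` in probability.  (3) Its expectation divided by
`n ^ (3/2)` converges to `1 / (2 sqrt 2)`. -/
theorem result :
    (∀ n k : ℕ, n ^ 2 ≤ k → (∀ H ∈ (law n k).support, H.CliqueFree 3) ∧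
      law n k = law n (n ^ 2)) ∧
    (∀ ε : ℝ, 0 < ε → Tendsto (fun n : ℕ => (law n (n ^ 2)).toOuterMeasure
      {H | ε < |(edges H : ℝ) / (n : ℝ) ^ ((3 : ℝ) / 2) - 1 / (2 * Real.sqrt 2)|})
      atTop (𝓝 0)) ∧
    Tendsto (fun n : ℕ => (∑' H, (law n (n ^ 2) H).toReal * (edges H : ℝ)) /
      (n : ℝ) ^ ((3 : ℝ) / 2)) atTop (𝓝 (1 / (2 * Real.sqrt 2))) := by
  classical
  obtain ⟨-, h2, h3⟩ := SharpConstant.result
  refine ⟨fun n k hk => ⟨fun H hH => triangle_free k hk H hH, ?_⟩, ?_, ?_⟩
  · induction k, hk using Nat.le_induction with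
    | base => rfl
    | succ k hk ih =>
      change (law n k).bind step = _
      rw [← ih]
      exact bind_step n k hk
  · intro ε hε
    refine (h2 ε hε).congr fun n => ?_
    unfold SharpConstant.finalLaw
    rw [← law_map, PMF.toOuterMeasure_map_apply]
    congr 1
    ext H
    simp only [Set.mem_preimage, Set.mem_ofPred_eq, card_phi]
  · refine h3.congr fun n => ?_
    unfold SharpConstant.finalLaw
    rw [← law_map, ex_map]
    simp only [card_phi]

end Vale.Agent.Results.P046.SimpleGraphForm
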